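import Mathlib
import Vale.Agent.Lib.P084.Extend

open Vale.Agent.Lib.P084

namespace Vale.Agent.Results.P084.InnerProductSpaces

universe u v

/-- Every real inner product space `X` (complete or not, of any dimension) has the Mazur-Ulam
property, even with respect to arbitrary real normed spaces `Y`: every surjective isometry from
the unit sphere of `X` onto the unit sphere of `Y` is the restriction of a surjective real-linear
isometry of `X` onto `Y`. -/
theorem result : ∀ (X : Type u) (Y : Type v) [NormedAddCommGroup X] [InnerProductSpace ℝ X]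
    [NormedAddCommGroup Y] [NormedSpace ℝ Y]
    (f : Metric.sphere (0 : X) 1 → Metric.sphere (0 : Y) 1),
    Isometry f → Function.Surjective f →
    ∃ T : X ≃ₗᵢ[ℝ] Y, ∀ x : Metric.sphere (0 : X) 1, T (x : X) = (f x : Y) := by
  intro X Y _ _ _ _ f hf hs
  classical
  let g : X → Y := fun x => if hx : x ∈ Metric.sphere (0 : X) 1 then (f ⟨x, hx⟩ : Y) else 0
  have hg : ∀ (x : X) (hx : x ∈ Metric.sphere (0 : X) 1), g x = (f ⟨x, hx⟩ : Y) := by
    intro x hx
    simp only [g, dif_pos hx]
  have hmem : ∀ x : X, ‖x‖ = 1 → x ∈ Metric.sphere (0 : X) 1 := by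
    intro x hx
    simpa using hx
  have hiso : SphereIso g := by
    refine ⟨?_, ?_, ?_⟩
    · intro x hx
      rw [hg x (hmem x hx)]
      simpa using (f ⟨x, hmem x hx⟩).2
    · intro x y hx hy
      rw [hg x (hmem x hx), hg y (hmem y hy)]
      have := hf.dist_eq ⟨x, hmem x hx⟩ ⟨y, hmem y hy⟩
      rw [Subtype.dist_eq, Subtype.dist_eq, dist_eq_norm, dist_eq_norm] at this
      exact this
    · intro w hw
      obtain ⟨x, hx⟩ := hs ⟨w, by simpa using hw⟩
      refine ⟨x, by simpa using x.2, ?_⟩
      rw [hg x x.2]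
      exact congrArg Subtype.val hx
  obtain ⟨T, hT⟩ := hiso.exists_linearIsometryEquiv
  refine ⟨T, fun x => ?_⟩
  rw [hT x (by simpa using x.2), hg x x.2]

end Vale.Agent.Results.P084.InnerProductSpaces
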